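import Mathlib

/-!
# Cell structures and the cell-mean decomposition (helper85, S0453 two-pair lemma)

States are triples `(M, A, C)` with `M` a cell, `A ∈ Acal (ρ M)`, `C ∈ Ccal (κ M)`.
`Qd` averages over the states with the same `(κ M, C)`, `Pd` over the states with the same
`(ρ M, A)`, `Ed` over the cell.  All functions are total functions `Cell → α → γ → ℝ`; only their
values on states matter.

Main result `CellData.ip_res_decomp`:  with `g = Ed f`, `h = f - g`,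
`⟨f - Q f, f - P f⟩ = ⟨g - Q g, g - P g⟩ + ‖h - Q h - P h‖²`.
-/

set_option autoImplicit false
set_option linter.unusedSectionVars false

namespace Crest.Agent.Helper85.S0453

open Finset

noncomputable section

/-- A cell structure. -/
structure CellData (Cell I J α γ : Type*) where
  ρ : Cell → I
  κ : Cell → J
  Acal : I → Finset α
  Ccal : J → Finset γ

namespace CellData

variable {Cell I J α γ : Type*} [Fintype Cell] [DecidableEq I] [DecidableEq J]
  [Fintype I] [Fintype J] (S : CellData Cell I J α γ)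

/-- Sum over all states. -/
def SS (F : Cell → α → γ → ℝ) : ℝ :=
  ∑ M, ∑ A ∈ S.Acal (S.ρ M), ∑ C ∈ S.Ccal (S.κ M), F M A C

/-- Counting inner product over the states. -/
def ip (u v : Cell → α → γ → ℝ) : ℝ := S.SS (fun M A C => u M A C * v M A C)

/-- Sum of `f` over the `Q`-class with key `(k, C)`. -/
def qs (f : Cell → α → γ → ℝ) (k : J) (C : γ) : ℝ :=
  ∑ M ∈ univ.filter (fun M => S.κ M = k), ∑ A ∈ S.Acal (S.ρ M), f M A C

/-- Size of a `Q`-class with key `(k, ·)`. -/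
def qn (k : J) : ℝ := ∑ M ∈ univ.filter (fun M => S.κ M = k), ((S.Acal (S.ρ M)).card : ℝ)

/-- Average over the states with the same `(κ M, C)`. -/
def Qd (f : Cell → α → γ → ℝ) : Cell → α → γ → ℝ :=
  fun M _ C => S.qs f (S.κ M) C / S.qn (S.κ M)

/-- Sum of `f` over the `P`-class with key `(r, A)`. -/
def ps (f : Cell → α → γ → ℝ) (r : I) (A : α) : ℝ :=
  ∑ M ∈ univ.filter (fun M => S.ρ M = r), ∑ C ∈ S.Ccal (S.κ M), f M A C

/-- Size of a `P`-class with key `(r, ·)`. -/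
def pn (r : I) : ℝ := ∑ M ∈ univ.filter (fun M => S.ρ M = r), ((S.Ccal (S.κ M)).card : ℝ)

/-- Average over the states with the same `(ρ M, A)`. -/
def Pd (f : Cell → α → γ → ℝ) : Cell → α → γ → ℝ :=
  fun M A _ => S.ps f (S.ρ M) A / S.pn (S.ρ M)

/-- Sum of `f` over the cell `M`. -/
def cs (f : Cell → α → γ → ℝ) (M : Cell) : ℝ :=
  ∑ A ∈ S.Acal (S.ρ M), ∑ C ∈ S.Ccal (S.κ M), f M A C

/-- Size of the cell `M`. -/
def cn (M : Cell) : ℝ := ((S.Acal (S.ρ M)).card : ℝ) * ((S.Ccal (S.κ M)).card : ℝ)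

/-- Average over the cell. -/
def Ed (f : Cell → α → γ → ℝ) : Cell → α → γ → ℝ :=
  fun M _ _ => S.cs f M / S.cn M

/-! ### Linearity -/

theorem SS_add (F G : Cell → α → γ → ℝ) :
    S.SS (fun M A C => F M A C + G M A C) = S.SS F + S.SS G := by
  simp only [SS, Finset.sum_add_distrib]

theorem SS_sub (F G : Cell → α → γ → ℝ) :
    S.SS (fun M A C => F M A C - G M A C) = S.SS F - S.SS G := by
  simp only [SS, Finset.sum_sub_distrib]

theorem SS_nonneg (F : Cell → α → γ → ℝ) (h : ∀ M A C, 0 ≤ F M A C) : 0 ≤ S.SS F :=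
  Finset.sum_nonneg fun _ _ => Finset.sum_nonneg fun _ _ => Finset.sum_nonneg fun _ _ => h _ _ _

theorem ip_comm (u v : Cell → α → γ → ℝ) : S.ip u v = S.ip v u := by
  simp only [ip, mul_comm]

theorem ip_add_left (u v w : Cell → α → γ → ℝ) : S.ip (u + v) w = S.ip u w + S.ip v w := by
  simp only [ip, Pi.add_apply, add_mul]
  exact S.SS_add _ _

theorem ip_sub_left (u v w : Cell → α → γ → ℝ) : S.ip (u - v) w = S.ip u w - S.ip v w := by
  simp only [ip, Pi.sub_apply, sub_mul]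
  exact S.SS_sub _ _

theorem ip_add_right (u v w : Cell → α → γ → ℝ) : S.ip u (v + w) = S.ip u v + S.ip u w := by
  rw [ip_comm, ip_add_left, ip_comm S v, ip_comm S w]

theorem ip_sub_right (u v w : Cell → α → γ → ℝ) : S.ip u (v - w) = S.ip u v - S.ip u w := by
  rw [ip_comm, ip_sub_left, ip_comm S v, ip_comm S w]

theorem ip_self_nonneg (u : Cell → α → γ → ℝ) : 0 ≤ S.ip u u :=
  S.SS_nonneg _ fun _ _ _ => mul_self_nonneg _

theorem qs_add (f g : Cell → α → γ → ℝ) (k : J) (C : γ) :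
    S.qs (f + g) k C = S.qs f k C + S.qs g k C := by
  simp only [qs, Pi.add_apply, Finset.sum_add_distrib]

theorem qs_sub (f g : Cell → α → γ → ℝ) (k : J) (C : γ) :
    S.qs (f - g) k C = S.qs f k C - S.qs g k C := by
  simp only [qs, Pi.sub_apply, Finset.sum_sub_distrib]

theorem Qd_add (f g : Cell → α → γ → ℝ) : S.Qd (f + g) = S.Qd f + S.Qd g := by
  funext M A C
  simp only [Qd, Pi.add_apply, qs_add, add_div]

theorem Qd_sub (f g : Cell → α → γ → ℝ) : S.Qd (f - g) = S.Qd f - S.Qd g := by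
  funext M A C
  simp only [Qd, Pi.sub_apply, qs_sub, sub_div]

theorem ps_add (f g : Cell → α → γ → ℝ) (r : I) (A : α) :
    S.ps (f + g) r A = S.ps f r A + S.ps g r A := by
  simp only [ps, Pi.add_apply, Finset.sum_add_distrib]

theorem ps_sub (f g : Cell → α → γ → ℝ) (r : I) (A : α) :
    S.ps (f - g) r A = S.ps f r A - S.ps g r A := by
  simp only [ps, Pi.sub_apply, Finset.sum_sub_distrib]

theorem Pd_add (f g : Cell → α → γ → ℝ) : S.Pd (f + g) = S.Pd f + S.Pd g := by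
  funext M A C
  simp only [Pd, Pi.add_apply, ps_add, add_div]

theorem Pd_sub (f g : Cell → α → γ → ℝ) : S.Pd (f - g) = S.Pd f - S.Pd g := by
  funext M A C
  simp only [Pd, Pi.sub_apply, ps_sub, sub_div]

theorem cs_sub (f g : Cell → α → γ → ℝ) (M : Cell) : S.cs (f - g) M = S.cs f M - S.cs g M := by
  simp only [cs, Pi.sub_apply, Finset.sum_sub_distrib]

/-! ### The `Q` average -/

theorem SS_regroupQ (φ : J → γ → ℝ) (u : Cell → α → γ → ℝ) :
    S.SS (fun M A C => φ (S.κ M) C * u M A C) = ∑ k, ∑ C ∈ S.Ccal k, φ k C * S.qs u k C := by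
  unfold SS qs
  rw [← Finset.sum_fiberwise univ S.κ]
  refine Finset.sum_congr rfl fun k _ => ?_
  have h1 : ∀ M ∈ univ.filter (fun M => S.κ M = k),
      (∑ A ∈ S.Acal (S.ρ M), ∑ C ∈ S.Ccal (S.κ M), φ (S.κ M) C * u M A C)
        = ∑ C ∈ S.Ccal k, φ k C * ∑ A ∈ S.Acal (S.ρ M), u M A C := by
    intro M hM
    obtain ⟨_, rfl⟩ := Finset.mem_filter.1 hM
    rw [Finset.sum_comm]
    refine Finset.sum_congr rfl fun C _ => ?_
    rw [Finset.mul_sum]
  rw [Finset.sum_congr rfl h1, Finset.sum_comm]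
  refine Finset.sum_congr rfl fun C _ => ?_
  rw [Finset.mul_sum]

theorem ip_Qd (f u : Cell → α → γ → ℝ) :
    S.ip (S.Qd f) u = ∑ k, ∑ C ∈ S.Ccal k, S.qs f k C / S.qn k * S.qs u k C :=
  S.SS_regroupQ (fun k C => S.qs f k C / S.qn k) u

theorem ip_Qd_symm (f u : Cell → α → γ → ℝ) : S.ip (S.Qd f) u = S.ip f (S.Qd u) := by
  rw [ip_Qd, ip_comm, ip_Qd]
  refine Finset.sum_congr rfl fun k _ => Finset.sum_congr rfl fun C _ => ?_
  ring

theorem qn_mul_div (f : Cell → α → γ → ℝ) (k : J) (C : γ) :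
    S.qn k * (S.qs f k C / S.qn k) = S.qs f k C := by
  by_cases h : S.qn k = 0
  · rw [h, zero_mul]
    unfold qn at h
    rw [Finset.sum_eq_zero_iff_of_nonneg (fun _ _ => Nat.cast_nonneg _)] at h
    unfold qs
    symm
    refine Finset.sum_eq_zero fun M hM => ?_
    have h0 : S.Acal (S.ρ M) = ∅ := by
      have := h M hM
      exact Finset.card_eq_zero.1 (by exact_mod_cast this)
    rw [h0, Finset.sum_empty]
  · field_simp

theorem qs_Qd (f : Cell → α → γ → ℝ) (k : J) (C : γ) : S.qs (S.Qd f) k C = S.qs f k C := by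
  rw [← S.qn_mul_div f k C]
  unfold qs qn Qd
  rw [Finset.sum_mul]
  refine Finset.sum_congr rfl fun M hM => ?_
  obtain ⟨_, rfl⟩ := Finset.mem_filter.1 hM
  rw [Finset.sum_const, nsmul_eq_mul]
  rfl

theorem ip_Qd_Qd (f u : Cell → α → γ → ℝ) : S.ip (S.Qd f) (S.Qd u) = S.ip (S.Qd f) u := by
  rw [ip_Qd, ip_Qd]
  refine Finset.sum_congr rfl fun k _ => Finset.sum_congr rfl fun C _ => ?_
  rw [qs_Qd]

/-! ### The `P` average -/

theorem SS_regroupP (φ : I → α → ℝ) (u : Cell → α → γ → ℝ) :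
    S.SS (fun M A C => φ (S.ρ M) A * u M A C) = ∑ r, ∑ A ∈ S.Acal r, φ r A * S.ps u r A := by
  unfold SS ps
  rw [← Finset.sum_fiberwise univ S.ρ]
  refine Finset.sum_congr rfl fun r _ => ?_
  have h1 : ∀ M ∈ univ.filter (fun M => S.ρ M = r),
      (∑ A ∈ S.Acal (S.ρ M), ∑ C ∈ S.Ccal (S.κ M), φ (S.ρ M) A * u M A C)
        = ∑ A ∈ S.Acal r, φ r A * ∑ C ∈ S.Ccal (S.κ M), u M A C := by
    intro M hM
    obtain ⟨_, rfl⟩ := Finset.mem_filter.1 hM
    refine Finset.sum_congr rfl fun A _ => ?_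
    rw [Finset.mul_sum]
  rw [Finset.sum_congr rfl h1, Finset.sum_comm]
  refine Finset.sum_congr rfl fun A _ => ?_
  rw [Finset.mul_sum]

theorem ip_Pd (f u : Cell → α → γ → ℝ) :
    S.ip (S.Pd f) u = ∑ r, ∑ A ∈ S.Acal r, S.ps f r A / S.pn r * S.ps u r A :=
  S.SS_regroupP (fun r A => S.ps f r A / S.pn r) u

theorem ip_Pd_symm (f u : Cell → α → γ → ℝ) : S.ip (S.Pd f) u = S.ip f (S.Pd u) := by
  rw [ip_Pd, ip_comm, ip_Pd]
  refine Finset.sum_congr rfl fun r _ => Finset.sum_congr rfl fun A _ => ?_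
  ring

theorem pn_mul_div (f : Cell → α → γ → ℝ) (r : I) (A : α) :
    S.pn r * (S.ps f r A / S.pn r) = S.ps f r A := by
  by_cases h : S.pn r = 0
  · rw [h, zero_mul]
    unfold pn at h
    rw [Finset.sum_eq_zero_iff_of_nonneg (fun _ _ => Nat.cast_nonneg _)] at h
    unfold ps
    symm
    refine Finset.sum_eq_zero fun M hM => ?_
    have h0 : S.Ccal (S.κ M) = ∅ := by
      have := h M hM
      exact Finset.card_eq_zero.1 (by exact_mod_cast this)
    rw [h0, Finset.sum_empty]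
  · field_simp

theorem ps_Pd (f : Cell → α → γ → ℝ) (r : I) (A : α) : S.ps (S.Pd f) r A = S.ps f r A := by
  rw [← S.pn_mul_div f r A]
  unfold ps pn Pd
  rw [Finset.sum_mul]
  refine Finset.sum_congr rfl fun M hM => ?_
  obtain ⟨_, rfl⟩ := Finset.mem_filter.1 hM
  rw [Finset.sum_const, nsmul_eq_mul]
  rfl

theorem ip_Pd_Pd (f u : Cell → α → γ → ℝ) : S.ip (S.Pd f) (S.Pd u) = S.ip (S.Pd f) u := by
  rw [ip_Pd, ip_Pd]
  refine Finset.sum_congr rfl fun r _ => Finset.sum_congr rfl fun A _ => ?_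
  rw [ps_Pd]

/-! ### The cell average -/

theorem ip_cell (φ : Cell → ℝ) (u : Cell → α → γ → ℝ) :
    S.ip (fun M _ _ => φ M) u = ∑ M, φ M * S.cs u M := by
  unfold ip SS cs
  refine Finset.sum_congr rfl fun M _ => ?_
  rw [Finset.mul_sum]
  refine Finset.sum_congr rfl fun A _ => ?_
  rw [Finset.mul_sum]

theorem cn_mul_div (f : Cell → α → γ → ℝ) (M : Cell) :
    S.cn M * (S.cs f M / S.cn M) = S.cs f M := by
  by_cases h : S.cn M = 0
  · rw [h, zero_mul]
    unfold cn at h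
    unfold cs
    rcases mul_eq_zero.1 h with h | h
    · have h0 : S.Acal (S.ρ M) = ∅ := Finset.card_eq_zero.1 (by exact_mod_cast h)
      rw [h0, Finset.sum_empty]
    · have h0 : S.Ccal (S.κ M) = ∅ := Finset.card_eq_zero.1 (by exact_mod_cast h)
      rw [h0]
      simp
  · field_simp

theorem cs_cell (φ : Cell → ℝ) (M : Cell) : S.cs (fun M _ _ => φ M) M = S.cn M * φ M := by
  unfold cs cn
  rw [Finset.sum_const, Finset.sum_const, nsmul_eq_mul, nsmul_eq_mul, mul_assoc]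

theorem cs_Ed (f : Cell → α → γ → ℝ) (M : Cell) : S.cs (S.Ed f) M = S.cs f M := by
  rw [← S.cn_mul_div f M]
  exact S.cs_cell (fun M => S.cs f M / S.cn M) M

theorem cs_sub_Ed (f : Cell → α → γ → ℝ) (M : Cell) : S.cs (f - S.Ed f) M = 0 := by
  rw [cs_sub, cs_Ed, sub_self]

theorem ip_cell_of_cs_zero (φ : Cell → ℝ) (h : Cell → α → γ → ℝ) (hh : ∀ M, S.cs h M = 0) :
    S.ip (fun M _ _ => φ M) h = 0 := by
  rw [ip_cell]
  exact Finset.sum_eq_zero fun M _ => by rw [hh, mul_zero]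

theorem Qd_cell (φ : Cell → ℝ) :
    S.Qd (fun M _ _ => φ M) = fun M _ _ =>
      (∑ M' ∈ univ.filter (fun M' => S.κ M' = S.κ M), ((S.Acal (S.ρ M')).card : ℝ) * φ M')
        / S.qn (S.κ M) := by
  funext M A C
  simp only [Qd, qs, Finset.sum_const, nsmul_eq_mul]

theorem Pd_cell (φ : Cell → ℝ) :
    S.Pd (fun M _ _ => φ M) = fun M _ _ =>
      (∑ M' ∈ univ.filter (fun M' => S.ρ M' = S.ρ M), ((S.Ccal (S.κ M')).card : ℝ) * φ M')
        / S.pn (S.ρ M) := by
  funext M A C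
  simp only [Pd, ps, Finset.sum_const, nsmul_eq_mul]

theorem sum_qs (h : Cell → α → γ → ℝ) (k : J) :
    ∑ C ∈ S.Ccal k, S.qs h k C = ∑ M ∈ univ.filter (fun M => S.κ M = k), S.cs h M := by
  unfold qs cs
  rw [Finset.sum_comm]
  refine Finset.sum_congr rfl fun M hM => ?_
  obtain ⟨_, rfl⟩ := Finset.mem_filter.1 hM
  rw [Finset.sum_comm]

theorem sum_ps (h : Cell → α → γ → ℝ) (r : I) :
    ∑ A ∈ S.Acal r, S.ps h r A = ∑ M ∈ univ.filter (fun M => S.ρ M = r), S.cs h M := by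
  unfold ps cs
  rw [Finset.sum_comm]
  refine Finset.sum_congr rfl fun M hM => ?_
  obtain ⟨_, rfl⟩ := Finset.mem_filter.1 hM
  rfl

theorem ip_Qd_Pd_of_cs_zero (h u : Cell → α → γ → ℝ) (hh : ∀ M, S.cs h M = 0) :
    S.ip (S.Qd h) (S.Pd u) = 0 := by
  rw [ip_Qd]
  refine Finset.sum_eq_zero fun k _ => ?_
  by_cases hk : (S.Ccal k).Nonempty
  · obtain ⟨C0, _⟩ := hk
    have h1 : ∀ C ∈ S.Ccal k, S.qs h k C / S.qn k * S.qs (S.Pd u) k C
        = S.qs h k C * (S.qs (S.Pd u) k C0 / S.qn k) := by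
      intro C _
      have : S.qs (S.Pd u) k C = S.qs (S.Pd u) k C0 := rfl
      rw [this]; ring
    rw [Finset.sum_congr rfl h1, ← Finset.sum_mul, sum_qs,
      Finset.sum_eq_zero (fun M _ => hh M), zero_mul]
  · rw [Finset.not_nonempty_iff_eq_empty.1 hk, Finset.sum_empty]

theorem ip_Pd_Qd_of_cs_zero (h u : Cell → α → γ → ℝ) (hh : ∀ M, S.cs h M = 0) :
    S.ip (S.Pd h) (S.Qd u) = 0 := by
  rw [ip_Pd]
  refine Finset.sum_eq_zero fun r _ => ?_
  by_cases hr : (S.Acal r).Nonempty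
  · obtain ⟨A0, _⟩ := hr
    have h1 : ∀ A ∈ S.Acal r, S.ps h r A / S.pn r * S.ps (S.Qd u) r A
        = S.ps h r A * (S.ps (S.Qd u) r A0 / S.pn r) := by
      intro A _
      have : S.ps (S.Qd u) r A = S.ps (S.Qd u) r A0 := rfl
      rw [this]; ring
    rw [Finset.sum_congr rfl h1, ← Finset.sum_mul, sum_ps,
      Finset.sum_eq_zero (fun M _ => hh M), zero_mul]
  · rw [Finset.not_nonempty_iff_eq_empty.1 hr, Finset.sum_empty]

/-- The `Q`-average of a cell function `φ`, as a cell function. -/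
def qc (φ : Cell → ℝ) (M : Cell) : ℝ :=
  (∑ M' ∈ univ.filter (fun M' => S.κ M' = S.κ M), ((S.Acal (S.ρ M')).card : ℝ) * φ M')
    / S.qn (S.κ M)

/-- The `P`-average of a cell function `φ`, as a cell function. -/
def pc (φ : Cell → ℝ) (M : Cell) : ℝ :=
  (∑ M' ∈ univ.filter (fun M' => S.ρ M' = S.ρ M), ((S.Ccal (S.κ M')).card : ℝ) * φ M')
    / S.pn (S.ρ M)

theorem ip_cell_res (φ : Cell → ℝ) :
    S.ip ((fun M _ _ => φ M) - S.Qd (fun M _ _ => φ M))
        ((fun M _ _ => φ M) - S.Pd (fun M _ _ => φ M))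
      = ∑ M, S.cn M * ((φ M - S.qc φ M) * (φ M - S.pc φ M)) := by
  rw [Qd_cell, Pd_cell]
  unfold ip SS cn
  refine Finset.sum_congr rfl fun M _ => ?_
  simp only [Pi.sub_apply, Finset.sum_const, nsmul_eq_mul]
  unfold qc pc
  ring

/-! ### Class sums as state sums with an indicator (used for transport) -/

theorem SS_ite_Q [DecidableEq γ] (u : Cell → α → γ → ℝ) (k : J) (c0 : γ) (hc : c0 ∈ S.Ccal k) :
    S.SS (fun D a c => if S.κ D = k ∧ c = c0 then u D a c else 0) = S.qs u k c0 := by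
  unfold SS qs
  rw [Finset.sum_filter]
  refine Finset.sum_congr rfl fun D _ => ?_
  by_cases hk : S.κ D = k
  · rw [if_pos hk]
    refine Finset.sum_congr rfl fun a _ => ?_
    simp only [hk, true_and]
    rw [Finset.sum_ite_eq', if_pos hc]
  · rw [if_neg hk]
    simp [hk]

theorem SS_ite_P [DecidableEq α] (u : Cell → α → γ → ℝ) (r : I) (a0 : α) (ha : a0 ∈ S.Acal r) :
    S.SS (fun D a c => if S.ρ D = r ∧ a = a0 then u D a c else 0) = S.ps u r a0 := by
  unfold SS ps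
  rw [Finset.sum_filter]
  refine Finset.sum_congr rfl fun D _ => ?_
  by_cases hr : S.ρ D = r
  · rw [if_pos hr]
    simp only [hr, true_and]
    have h1 : ∀ a ∈ S.Acal r, (∑ c ∈ S.Ccal (S.κ D), if a = a0 then u D a c else 0)
        = if a = a0 then ∑ c ∈ S.Ccal (S.κ D), u D a c else 0 := by
      intro a _
      split_ifs <;> simp
    rw [Finset.sum_congr rfl h1, Finset.sum_ite_eq', if_pos ha]
  · rw [if_neg hr]
    simp [hr]

/-- **Cell-mean decomposition.**  With `g = Ed f` (cell mean) and `h = f - g`: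
`⟨f - Qf, f - Pf⟩ = ⟨g - Qg, g - Pg⟩ + ‖h - Qh - Ph‖²`. -/
theorem ip_res_decomp (f : Cell → α → γ → ℝ) :
    S.ip (f - S.Qd f) (f - S.Pd f)
      = S.ip (S.Ed f - S.Qd (S.Ed f)) (S.Ed f - S.Pd (S.Ed f))
        + S.ip ((f - S.Ed f) - S.Qd (f - S.Ed f) - S.Pd (f - S.Ed f))
            ((f - S.Ed f) - S.Qd (f - S.Ed f) - S.Pd (f - S.Ed f)) := by
  set g := S.Ed f with hg
  set h := f - g with hh
  have hf : f = g + h := by rw [hh]; abel
  have hcs : ∀ M, S.cs h M = 0 := fun M => S.cs_sub_Ed f M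
  have hQf : S.Qd f = S.Qd g + S.Qd h := by rw [← Qd_add, ← hf]
  have hPf : S.Pd f = S.Pd g + S.Pd h := by rw [← Pd_add, ← hf]
  -- the facts
  have a1 : S.ip g h = 0 := S.ip_cell_of_cs_zero _ h hcs
  have a2 : S.ip (S.Qd g) h = 0 := by
    rw [hg]
    have : S.Ed f = fun M _ _ => S.cs f M / S.cn M := rfl
    rw [this, Qd_cell]
    exact S.ip_cell_of_cs_zero _ h hcs
  have a3 : S.ip (S.Pd g) h = 0 := by
    rw [hg]
    have : S.Ed f = fun M _ _ => S.cs f M / S.cn M := rfl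
    rw [this, Pd_cell]
    exact S.ip_cell_of_cs_zero _ h hcs
  have a4 : S.ip (S.Qd h) (S.Pd h) = 0 := S.ip_Qd_Pd_of_cs_zero h h hcs
  have a5 : S.ip (S.Qd h) (S.Pd g) = 0 := S.ip_Qd_Pd_of_cs_zero h g hcs
  have a6 : S.ip (S.Pd h) (S.Qd g) = 0 := S.ip_Pd_Qd_of_cs_zero h g hcs
  have a7 : S.ip g (S.Pd h) = 0 := by rw [← ip_Pd_symm, ip_comm]; rw [ip_comm] at a3; exact a3 ▸ rfl
  have a8 : S.ip (S.Qd h) g = 0 := by rw [ip_Qd_symm, ip_comm]; exact a2
  have a9 : S.ip (S.Qd h) h = S.ip (S.Qd h) (S.Qd h) := (S.ip_Qd_Qd h h).symm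
  have a10 : S.ip (S.Pd h) h = S.ip (S.Pd h) (S.Pd h) := (S.ip_Pd_Pd h h).symm
  have c1 : S.ip h g = 0 := by rw [ip_comm]; exact a1
  have c2 : S.ip h (S.Qd g) = 0 := by rw [ip_comm]; exact a2
  have c3 : S.ip h (S.Pd g) = 0 := by rw [ip_comm]; exact a3
  have c4 : S.ip (S.Pd h) (S.Qd h) = 0 := by rw [ip_comm]; exact a4
  have c6 : S.ip (S.Qd g) (S.Pd h) = 0 := by rw [ip_comm]; exact a6
  have c7 : S.ip (S.Pd h) g = 0 := by rw [ip_comm]; exact a7
  have c9 : S.ip h (S.Qd h) = S.ip (S.Qd h) (S.Qd h) := by rw [ip_comm]; exact a9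
  have c10 : S.ip h (S.Pd h) = S.ip (S.Pd h) (S.Pd h) := by rw [ip_comm]; exact a10
  have e1 : f - S.Qd f = (g - S.Qd g) + (h - S.Qd h) := by rw [hQf]; nth_rewrite 1 [hf]; abel
  have e2 : f - S.Pd f = (g - S.Pd g) + (h - S.Pd h) := by rw [hPf]; nth_rewrite 1 [hf]; abel
  rw [e1, e2]
  simp only [ip_add_left, ip_sub_left, ip_add_right, ip_sub_right]
  linarith

end CellData

end

end Crest.Agent.Helper85.S0453
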