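import Crest.Agent.Helper85.S0453.Diamond
import Crest.Agent.Helper17.SW.TwoPairSpec

/-!
# (E2b) in helper17's transport form (helper85, second track)

`diaStmt : Crest.Agent.Helper17.SW.DiaStmt`, obtained by transporting `diamond_core` along the
coordinates `(M, A, C)` of a `Coords` structure with block sum `2`.
-/

set_option autoImplicit false
set_option linter.unusedSectionVars false

namespace Crest.Agent.Helper85.S0453

open Finset
open Crest.Agent.Helper17.SW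

noncomputable section

/-! ### Dictionary between the six cells and the blocks of sum `2` -/

/-- The block of a cell. -/
def toBlk : DCell → Blk4
  | .up => (true, true, false, false)
  | .dn => (false, false, true, true)
  | .lf => (true, false, true, false)
  | .rt => (false, true, false, true)
  | .cp => (true, false, false, true)
  | .cm => (false, true, true, false)

/-- The cell of a block (junk value `cm` when the block sum is not `2`). -/
def ofBlk : Blk4 → DCell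
  | (true, true, false, false) => .up
  | (false, false, true, true) => .dn
  | (true, false, true, false) => .lf
  | (false, true, false, true) => .rt
  | (true, false, false, true) => .cp
  | _ => .cm

theorem ofBlk_toBlk (D : DCell) : ofBlk (toBlk D) = D := by cases D <;> rfl

theorem toBlk_ofBlk : ∀ μ : Blk4, μ.tot = 2 → toBlk (ofBlk μ) = μ := by decide

theorem tot_toBlk (D : DCell) : (toBlk D).tot = 2 := by cases D <;> rfl

theorem rho_toBlk (D : DCell) : (toBlk D).rho = (DCell.ρ D : ℕ) := by cases D <;> rfl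

theorem kap_toBlk (D : DCell) : (toBlk D).kap = (DCell.κ D : ℕ) := by cases D <;> rfl

theorem rho_eq (μ : Blk4) (h : μ.tot = 2) : μ.rho = (DCell.ρ (ofBlk μ) : ℕ) := by
  have := rho_toBlk (ofBlk μ)
  rwa [toBlk_ofBlk μ h] at this

theorem kap_eq (μ : Blk4) (h : μ.tot = 2) : μ.kap = (DCell.κ (ofBlk μ) : ℕ) := by
  have := kap_toBlk (ofBlk μ)
  rwa [toBlk_ofBlk μ h] at this

theorem ctr_iff : ∀ μ : Blk4, μ.tot = 2 → (μ.ctr ↔ (ofBlk μ = .cp ∨ ofBlk μ = .cm)) := by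
  decide

theorem cp_iff : ∀ μ : Blk4, μ.tot = 2 → (μ = Blk4.cp ↔ ofBlk μ = .cp) := by decide

theorem cm_iff : ∀ μ : Blk4, μ.tot = 2 → (μ = Blk4.cm ↔ ofBlk μ = .cm) := by decide

/-! ### Transport along the coordinates -/

section Transport

variable {X L L' 𝒜 𝒞 : Type} [DecidableEq L] [DecidableEq L'] [DecidableEq 𝒜] [DecidableEq 𝒞]
  {Φ : Finset X} {ℓ : X → L} {ℓ' : X → L'} {M : X → Blk4} {A : X → 𝒜} {C : X → 𝒞}
  {As : ℕ → Finset 𝒜} {Cs : ℕ → Finset 𝒞}

/-- The diamond built from the families `As`, `Cs`. -/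
abbrev dia (As : ℕ → Finset 𝒜) (Cs : ℕ → Finset 𝒞) : CellData DCell (Fin 3) (Fin 3) 𝒜 𝒞 :=
  diamond (fun r : Fin 3 => As (r : ℕ)) (fun k : Fin 3 => Cs (k : ℕ))

theorem tot_of_mem (hco : Coords Φ ℓ ℓ' M A C 2 As Cs) {x : X} (hx : x ∈ Φ) : (M x).tot = 2 :=
  ((hco.img (M x) (A x) (C x)).1 ⟨x, hx, rfl, rfl, rfl⟩).1

theorem A_mem (hco : Coords Φ ℓ ℓ' M A C 2 As Cs) {x : X} (hx : x ∈ Φ) :
    A x ∈ As (M x).rho :=
  ((hco.img (M x) (A x) (C x)).1 ⟨x, hx, rfl, rfl, rfl⟩).2.1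

theorem C_mem (hco : Coords Φ ℓ ℓ' M A C 2 As Cs) {x : X} (hx : x ∈ Φ) :
    C x ∈ Cs (M x).kap :=
  ((hco.img (M x) (A x) (C x)).1 ⟨x, hx, rfl, rfl, rfl⟩).2.2

/-- Sums over the fibre are sums over the states of the diamond. -/
theorem sum_coords (hco : Coords Φ ℓ ℓ' M A C 2 As Cs) (G : DCell → 𝒜 → 𝒞 → ℝ) :
    ∑ x ∈ Φ, G (ofBlk (M x)) (A x) (C x) = (dia As Cs).SS G := by
  unfold CellData.SS
  rw [← Finset.sum_fiberwise Φ (fun x => ofBlk (M x))]
  refine Finset.sum_congr rfl fun D _ => ?_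
  rw [← Finset.sum_product']
  refine Finset.sum_bij (fun x _ => (A x, C x)) ?_ ?_ ?_ ?_
  · intro x hx
    obtain ⟨hxΦ, hD⟩ := Finset.mem_filter.1 hx
    have ht := tot_of_mem hco hxΦ
    rw [Finset.mem_product]
    refine ⟨?_, ?_⟩
    · have := A_mem hco hxΦ
      rw [rho_eq _ ht, hD] at this
      exact this
    · have := C_mem hco hxΦ
      rw [kap_eq _ ht, hD] at this
      exact this
  · intro x hx y hy hxy
    obtain ⟨hxΦ, hDx⟩ := Finset.mem_filter.1 hx
    obtain ⟨hyΦ, hDy⟩ := Finset.mem_filter.1 hy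
    have hM : M x = M y := by
      rw [← toBlk_ofBlk _ (tot_of_mem hco hxΦ), ← toBlk_ofBlk _ (tot_of_mem hco hyΦ), hDx, hDy]
    exact hco.inj x hxΦ y hyΦ hM (congrArg Prod.fst hxy) (congrArg Prod.snd hxy)
  · intro p hp
    obtain ⟨ha, hc⟩ := Finset.mem_product.1 hp
    obtain ⟨x, hx, h1, h2, h3⟩ := (hco.img (toBlk D) p.1 p.2).2
      ⟨tot_toBlk D, by rw [rho_toBlk]; exact ha, by rw [kap_toBlk]; exact hc⟩
    refine ⟨x, Finset.mem_filter.2 ⟨hx, by rw [h1, ofBlk_toBlk]⟩, ?_⟩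
    rw [h2, h3]
  · intro x hx
    obtain ⟨_, hD⟩ := Finset.mem_filter.1 hx
    rw [hD]

open Classical in
/-- The function on the diamond corresponding to `f`. -/
def lift (Φ : Finset X) (M : X → Blk4) (A : X → 𝒜) (C : X → 𝒞) (f : X → ℝ) :
    DCell → 𝒜 → 𝒞 → ℝ :=
  fun D a c => if h : ∃ x ∈ Φ, M x = toBlk D ∧ A x = a ∧ C x = c then f h.choose else 0

theorem lift_apply (hco : Coords Φ ℓ ℓ' M A C 2 As Cs) (f : X → ℝ) {x : X} (hx : x ∈ Φ) :
    lift Φ M A C f (ofBlk (M x)) (A x) (C x) = f x := by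
  have ht := tot_of_mem hco hx
  have hex : ∃ y ∈ Φ, M y = toBlk (ofBlk (M x)) ∧ A y = A x ∧ C y = C x :=
    ⟨x, hx, (toBlk_ofBlk _ ht).symm, rfl, rfl⟩
  unfold lift
  rw [dif_pos hex]
  obtain ⟨hy, h1, h2, h3⟩ := hex.choose_spec
  exact congrArg f (hco.inj _ hy _ hx (h1.trans (toBlk_ofBlk _ ht)) h2 h3)

theorem κ_eq_iff (hco : Coords Φ ℓ ℓ' M A C 2 As Cs) {x y : X} (hx : x ∈ Φ) (hy : y ∈ Φ) :
    (M y).kap = (M x).kap ↔ DCell.κ (ofBlk (M y)) = DCell.κ (ofBlk (M x)) := by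
  rw [kap_eq _ (tot_of_mem hco hx), kap_eq _ (tot_of_mem hco hy)]
  exact Fin.val_inj

theorem ρ_eq_iff (hco : Coords Φ ℓ ℓ' M A C 2 As Cs) {x y : X} (hx : x ∈ Φ) (hy : y ∈ Φ) :
    (M y).rho = (M x).rho ↔ DCell.ρ (ofBlk (M y)) = DCell.ρ (ofBlk (M x)) := by
  rw [rho_eq _ (tot_of_mem hco hx), rho_eq _ (tot_of_mem hco hy)]
  exact Fin.val_inj

theorem C_mem' (hco : Coords Φ ℓ ℓ' M A C 2 As Cs) {x : X} (hx : x ∈ Φ) :
    C x ∈ (dia As Cs).Ccal (DCell.κ (ofBlk (M x))) := by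
  have := C_mem hco hx
  rw [kap_eq _ (tot_of_mem hco hx)] at this
  exact this

theorem A_mem' (hco : Coords Φ ℓ ℓ' M A C 2 As Cs) {x : X} (hx : x ∈ Φ) :
    A x ∈ (dia As Cs).Acal (DCell.ρ (ofBlk (M x))) := by
  have := A_mem hco hx
  rw [rho_eq _ (tot_of_mem hco hx)] at this
  exact this

/-- Sum over an `ℓ`-class. -/
theorem sum_cls_Q (hco : Coords Φ ℓ ℓ' M A C 2 As Cs) (w : X → ℝ) (W : DCell → 𝒜 → 𝒞 → ℝ)
    (hw : ∀ y ∈ Φ, w y = W (ofBlk (M y)) (A y) (C y)) {x : X} (hx : x ∈ Φ) :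
    ∑ y ∈ cls Φ ℓ x, w y = (dia As Cs).qs W (DCell.κ (ofBlk (M x))) (C x) := by
  have hcls : cls Φ ℓ x
      = Φ.filter (fun y => DCell.κ (ofBlk (M y)) = DCell.κ (ofBlk (M x)) ∧ C y = C x) := by
    unfold cls
    refine Finset.filter_congr fun y hy => ?_
    rw [hco.key y hy x hx, κ_eq_iff hco hx hy]
  rw [hcls, Finset.sum_filter, ← (dia As Cs).SS_ite_Q W _ _ (C_mem' hco hx), ← sum_coords hco]
  refine Finset.sum_congr rfl fun y hy => ?_
  rw [hw y hy]
  rfl

/-- Sum over an `ℓ'`-class. -/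
theorem sum_cls_P (hco : Coords Φ ℓ ℓ' M A C 2 As Cs) (w : X → ℝ) (W : DCell → 𝒜 → 𝒞 → ℝ)
    (hw : ∀ y ∈ Φ, w y = W (ofBlk (M y)) (A y) (C y)) {x : X} (hx : x ∈ Φ) :
    ∑ y ∈ cls Φ ℓ' x, w y = (dia As Cs).ps W (DCell.ρ (ofBlk (M x))) (A x) := by
  have hcls : cls Φ ℓ' x
      = Φ.filter (fun y => DCell.ρ (ofBlk (M y)) = DCell.ρ (ofBlk (M x)) ∧ A y = A x) := by
    unfold cls
    refine Finset.filter_congr fun y hy => ?_
    rw [hco.key' y hy x hx, ρ_eq_iff hco hx hy]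
  rw [hcls, Finset.sum_filter, ← (dia As Cs).SS_ite_P W _ _ (A_mem' hco hx), ← sum_coords hco]
  refine Finset.sum_congr rfl fun y hy => ?_
  rw [hw y hy]
  rfl

theorem card_cls_Q (hco : Coords Φ ℓ ℓ' M A C 2 As Cs) {x : X} (hx : x ∈ Φ) :
    ((cls Φ ℓ x).card : ℝ) = (dia As Cs).qn (DCell.κ (ofBlk (M x))) := by
  rw [Finset.card_eq_sum_ones, Nat.cast_sum]
  simp only [Nat.cast_one]
  rw [sum_cls_Q hco (fun _ => (1 : ℝ)) (fun _ _ _ => 1) (fun _ _ => rfl) hx]
  unfold CellData.qs CellData.qn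
  refine Finset.sum_congr rfl fun D _ => ?_
  rw [Finset.sum_const, nsmul_eq_mul, mul_one]

theorem card_cls_P (hco : Coords Φ ℓ ℓ' M A C 2 As Cs) {x : X} (hx : x ∈ Φ) :
    ((cls Φ ℓ' x).card : ℝ) = (dia As Cs).pn (DCell.ρ (ofBlk (M x))) := by
  rw [Finset.card_eq_sum_ones, Nat.cast_sum]
  simp only [Nat.cast_one]
  rw [sum_cls_P hco (fun _ => (1 : ℝ)) (fun _ _ _ => 1) (fun _ _ => rfl) hx]
  unfold CellData.ps CellData.pn
  refine Finset.sum_congr rfl fun D _ => ?_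
  rw [Finset.sum_const, nsmul_eq_mul, mul_one]

theorem avg_Q (hco : Coords Φ ℓ ℓ' M A C 2 As Cs) (f : X → ℝ) {x : X} (hx : x ∈ Φ) :
    avg Φ ℓ f x = (dia As Cs).Qd (lift Φ M A C f) (ofBlk (M x)) (A x) (C x) := by
  unfold avg
  rw [sum_cls_Q hco f (lift Φ M A C f) (fun y hy => (lift_apply hco f hy).symm) hx,
    card_cls_Q hco hx]
  rfl

theorem avg_P (hco : Coords Φ ℓ ℓ' M A C 2 As Cs) (f : X → ℝ) {x : X} (hx : x ∈ Φ) :
    avg Φ ℓ' f x = (dia As Cs).Pd (lift Φ M A C f) (ofBlk (M x)) (A x) (C x) := by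
  unfold avg
  rw [sum_cls_P hco f (lift Φ M A C f) (fun y hy => (lift_apply hco f hy).symm) hx,
    card_cls_P hco hx]
  rfl

end Transport

theorem kap_of_ctr : ∀ μ : Blk4, μ.ctr → μ.kap = 1 := by decide

theorem rho_of_ctr : ∀ μ : Blk4, μ.ctr → μ.rho = 1 := by decide

theorem ctr_cp : Blk4.cp.ctr := Or.inl rfl

section Transport2

variable {X L L' 𝒜 𝒞 : Type} [DecidableEq L] [DecidableEq L'] [DecidableEq 𝒜] [DecidableEq 𝒞]
  {Φ : Finset X} {ℓ : X → L} {ℓ' : X → L'} {M : X → Blk4} {A : X → 𝒜} {C : X → 𝒞}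
  {As : ℕ → Finset 𝒜} {Cs : ℕ → Finset 𝒞}

theorem A_mem_one (hco : Coords Φ ℓ ℓ' M A C 2 As Cs) {x : X} (hx : x ∈ Φ) (hctr : (M x).ctr) :
    A x ∈ As 1 := by
  have := A_mem hco hx
  rwa [rho_of_ctr _ hctr] at this

theorem C_mem_one (hco : Coords Φ ℓ ℓ' M A C 2 As Cs) {x : X} (hx : x ∈ Φ) (hctr : (M x).ctr) :
    C x ∈ Cs 1 := by
  have := C_mem hco hx
  rwa [kap_of_ctr _ hctr] at this

theorem sum_coords_cp (hco : Coords Φ ℓ ℓ' M A C 2 As Cs) (G : DCell → 𝒜 → 𝒞 → ℝ) :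
    ∑ x ∈ Φ, (if ofBlk (M x) = .cp then G (ofBlk (M x)) (A x) (C x) else 0)
      = ∑ a ∈ As 1, ∑ c ∈ Cs 1, G .cp a c :=
  (sum_coords hco (fun D a c => if D = .cp then G D a c else 0)).trans (SS_diamond_cp _ _ G)

theorem sum_coords_cm (hco : Coords Φ ℓ ℓ' M A C 2 As Cs) (G : DCell → 𝒜 → 𝒞 → ℝ) :
    ∑ x ∈ Φ, (if ofBlk (M x) = .cm then G (ofBlk (M x)) (A x) (C x) else 0)
      = ∑ a ∈ As 1, ∑ c ∈ Cs 1, G .cm a c :=
  (sum_coords hco (fun D a c => if D = .cm then G D a c else 0)).trans (SS_diamond_cm _ _ G)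

theorem sum_coords_ctr (hco : Coords Φ ℓ ℓ' M A C 2 As Cs) (G : DCell → 𝒜 → 𝒞 → ℝ) :
    ∑ x ∈ Φ, (if ofBlk (M x) = .cp ∨ ofBlk (M x) = .cm then G (ofBlk (M x)) (A x) (C x) else 0)
      = (∑ a ∈ As 1, ∑ c ∈ Cs 1, G .cp a c) + ∑ a ∈ As 1, ∑ c ∈ Cs 1, G .cm a c :=
  (sum_coords hco (fun D a c => if D = .cp ∨ D = .cm then G D a c else 0)).trans
    (SS_diamond_ctr _ _ G)

/-- The switch energy of the fibre is the centre energy of the diamond. -/
theorem swC_eq (hco : Coords Φ ℓ ℓ' M A C 2 As Cs) (f : X → ℝ) :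
    swC Φ M A C f
      = ∑ a ∈ As 1, ∑ c ∈ Cs 1, (lift Φ M A C f .cp a c - lift Φ M A C f .cm a c) ^ 2 := by
  set F := lift Φ M A C f with hF
  unfold swC
  have step : ∀ x ∈ Φ,
      (∑ y ∈ Φ, if M x = Blk4.cp ∧ M y = Blk4.cm ∧ A y = A x ∧ C y = C x
          then (f x - f y) ^ 2 else 0)
        = if ofBlk (M x) = .cp then
            (fun (_ : DCell) a c => (F .cp a c - F .cm a c) ^ 2) (ofBlk (M x)) (A x) (C x)
          else 0 := by
    intro x hx
    have ht := tot_of_mem hco hx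
    by_cases hcp : M x = Blk4.cp
    · have hD : ofBlk (M x) = .cp := (cp_iff _ ht).1 hcp
      have hctr : (M x).ctr := Or.inl hcp
      have hA : A x ∈ As 1 := A_mem_one hco hx hctr
      have hC : C x ∈ Cs 1 := C_mem_one hco hx hctr
      have inner : ∀ y ∈ Φ,
          (if M x = Blk4.cp ∧ M y = Blk4.cm ∧ A y = A x ∧ C y = C x then (f x - f y) ^ 2 else 0)
            = if ofBlk (M y) = .cm then
                (fun D a c => if a = A x ∧ c = C x then (f x - F D a c) ^ 2 else 0)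
                  (ofBlk (M y)) (A y) (C y)
              else 0 := by
        intro y hy
        have hty := tot_of_mem hco hy
        have hFy : F (ofBlk (M y)) (A y) (C y) = f y := lift_apply hco f hy
        simp only [hcp, true_and, cm_iff _ hty, hFy, ite_and]
      have e : ∑ a ∈ As 1, ∑ c ∈ Cs 1, (if a = A x ∧ c = C x then (f x - F .cm a c) ^ 2 else 0)
          = (f x - F .cm (A x) (C x)) ^ 2 :=
        sum_sum_ite_eq (As 1) (Cs 1) (A x) (C x) hA hC (fun a c => (f x - F .cm a c) ^ 2)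
      have hFx : F .cp (A x) (C x) = f x := by
        have := lift_apply hco f hx
        rwa [hD] at this
      rw [Finset.sum_congr rfl inner, if_pos hD]
      refine (sum_coords_cm hco
        (fun D a c => if a = A x ∧ c = C x then (f x - F D a c) ^ 2 else 0)).trans ?_
      rw [e]
      show (f x - F .cm (A x) (C x)) ^ 2 = (F .cp (A x) (C x) - F .cm (A x) (C x)) ^ 2
      rw [hFx]
    · have hD : ¬ ofBlk (M x) = .cp := fun h => hcp ((cp_iff _ ht).2 h)
      simp only [hcp, false_and, if_false, Finset.sum_const_zero, hD]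
  rw [Finset.sum_congr rfl step]
  exact sum_coords_cp hco (fun _ a c => (F .cp a c - F .cm a c) ^ 2)

/-- Sum over the centre part of an `ℓ`-class. -/
theorem sum_cls_ctr_Q (hco : Coords Φ ℓ ℓ' M A C 2 As Cs) (w : X → ℝ)
    (W : DCell → 𝒜 → 𝒞 → ℝ) (hw : ∀ y ∈ Φ, w y = W (ofBlk (M y)) (A y) (C y)) {x : X}
    (hx : x ∈ Φ) (hctr : (M x).ctr) :
    ∑ y ∈ (cls Φ ℓ x).filter (fun y => (M y).ctr), w y
      = (∑ a ∈ As 1, W .cp a (C x)) + ∑ a ∈ As 1, W .cm a (C x) := by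
  have hC : C x ∈ Cs 1 := C_mem_one hco hx hctr
  have hfil : (cls Φ ℓ x).filter (fun y => (M y).ctr)
      = Φ.filter (fun y => (ofBlk (M y) = .cp ∨ ofBlk (M y) = .cm) ∧ C y = C x) := by
    unfold cls
    rw [Finset.filter_filter]
    refine Finset.filter_congr fun y hy => ?_
    rw [hco.key y hy x hx, ctr_iff _ (tot_of_mem hco hy)]
    constructor
    · rintro ⟨⟨_, h2⟩, h3⟩
      exact ⟨h3, h2⟩
    · rintro ⟨h3, h2⟩
      refine ⟨⟨?_, h2⟩, h3⟩
      rw [kap_of_ctr _ ((ctr_iff _ (tot_of_mem hco hy)).2 h3), kap_of_ctr _ hctr]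
  rw [hfil, Finset.sum_filter]
  have h1 : ∀ y ∈ Φ,
      (if (ofBlk (M y) = .cp ∨ ofBlk (M y) = .cm) ∧ C y = C x then w y else 0)
        = if ofBlk (M y) = .cp ∨ ofBlk (M y) = .cm then
            (fun D a c => if c = C x then W D a c else 0) (ofBlk (M y)) (A y) (C y)
          else 0 := by
    intro y hy
    rw [hw y hy]
    simp only [ite_and]
  rw [Finset.sum_congr rfl h1]
  refine (sum_coords_ctr hco (fun D a c => if c = C x then W D a c else 0)).trans ?_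
  have h2 : ∀ D : DCell, ∑ a ∈ As 1, ∑ c ∈ Cs 1, (if c = C x then W D a c else 0)
      = ∑ a ∈ As 1, W D a (C x) := by
    intro D
    refine Finset.sum_congr rfl fun a _ => ?_
    rw [Finset.sum_ite_eq', if_pos hC]
  rw [h2, h2]

/-- Sum over the centre part of an `ℓ'`-class. -/
theorem sum_cls_ctr_P (hco : Coords Φ ℓ ℓ' M A C 2 As Cs) (w : X → ℝ)
    (W : DCell → 𝒜 → 𝒞 → ℝ) (hw : ∀ y ∈ Φ, w y = W (ofBlk (M y)) (A y) (C y)) {x : X}
    (hx : x ∈ Φ) (hctr : (M x).ctr) :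
    ∑ y ∈ (cls Φ ℓ' x).filter (fun y => (M y).ctr), w y
      = (∑ c ∈ Cs 1, W .cp (A x) c) + ∑ c ∈ Cs 1, W .cm (A x) c := by
  have hA : A x ∈ As 1 := A_mem_one hco hx hctr
  have hfil : (cls Φ ℓ' x).filter (fun y => (M y).ctr)
      = Φ.filter (fun y => (ofBlk (M y) = .cp ∨ ofBlk (M y) = .cm) ∧ A y = A x) := by
    unfold cls
    rw [Finset.filter_filter]
    refine Finset.filter_congr fun y hy => ?_
    rw [hco.key' y hy x hx, ctr_iff _ (tot_of_mem hco hy)]
    constructor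
    · rintro ⟨⟨_, h2⟩, h3⟩
      exact ⟨h3, h2⟩
    · rintro ⟨h3, h2⟩
      refine ⟨⟨?_, h2⟩, h3⟩
      rw [rho_of_ctr _ ((ctr_iff _ (tot_of_mem hco hy)).2 h3), rho_of_ctr _ hctr]
  rw [hfil, Finset.sum_filter]
  have h1 : ∀ y ∈ Φ,
      (if (ofBlk (M y) = .cp ∨ ofBlk (M y) = .cm) ∧ A y = A x then w y else 0)
        = if ofBlk (M y) = .cp ∨ ofBlk (M y) = .cm then
            (fun D a c => if a = A x then W D a c else 0) (ofBlk (M y)) (A y) (C y)
          else 0 := by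
    intro y hy
    rw [hw y hy]
    simp only [ite_and]
  rw [Finset.sum_congr rfl h1]
  refine (sum_coords_ctr hco (fun D a c => if a = A x then W D a c else 0)).trans ?_
  have h2 : ∀ D : DCell, ∑ a ∈ As 1, ∑ c ∈ Cs 1, (if a = A x then W D a c else 0)
      = ∑ c ∈ Cs 1, W D (A x) c := by
    intro D
    have h3 : ∀ a ∈ As 1, (∑ c ∈ Cs 1, if a = A x then W D a c else 0)
        = if a = A x then ∑ c ∈ Cs 1, W D a c else 0 := by
      intro a _
      split_ifs <;> simp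
    rw [Finset.sum_congr rfl h3, Finset.sum_ite_eq', if_pos hA]
  rw [h2, h2]

/-- The Bad term of `ℓ` is the Bad term of `Q` on the diamond. -/
theorem badC_Q_eq (hco : Coords Φ ℓ ℓ' M A C 2 As Cs) (f : X → ℝ) :
    badC Φ ℓ (fun x => (M x).ctr) f
      = BadQ (fun r : Fin 3 => As (r : ℕ)) (fun k : Fin 3 => Cs (k : ℕ)) (lift Φ M A C f) := by
  set F := lift Φ M A C f with hF
  unfold badC
  rw [Finset.sum_filter]
  have step : ∀ x ∈ Φ,
      (if (M x).ctr then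
          ((∑ y ∈ (cls Φ ℓ x).filter (fun y => (M y).ctr), f y)
              / (((cls Φ ℓ x).filter (fun y => (M y).ctr)).card : ℝ) - avg Φ ℓ f x) ^ 2
        else 0)
        = if ofBlk (M x) = .cp ∨ ofBlk (M x) = .cm then
            (fun (_ : DCell) a c => (mcQ (fun r : Fin 3 => As (r : ℕ)) F c
                - (dia As Cs).Qd F .cp a c) ^ 2) (ofBlk (M x)) (A x) (C x)
          else 0 := by
    intro x hx
    have ht := tot_of_mem hco hx
    by_cases hctr : (M x).ctr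
    · have hD := (ctr_iff _ ht).1 hctr
      rw [if_pos hctr, if_pos hD]
      rw [sum_cls_ctr_Q hco f F (fun y hy => (lift_apply hco f hy).symm) hx hctr]
      have hcard : (((cls Φ ℓ x).filter (fun y => (M y).ctr)).card : ℝ)
          = ((As 1).card : ℝ) + (As 1).card := by
        rw [Finset.card_eq_sum_ones, Nat.cast_sum]
        simp only [Nat.cast_one]
        rw [sum_cls_ctr_Q hco (fun _ => (1 : ℝ)) (fun _ _ _ => 1) (fun _ _ => rfl) hx hctr]
        simp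
      rw [hcard, avg_Q hco f hx]
      have hQ : (dia As Cs).Qd F (ofBlk (M x)) (A x) (C x) = (dia As Cs).Qd F .cp (A x) (C x) := by
        rcases hD with h | h
        · rw [h]
        · rw [h]
          rfl
      rw [hQ]
      rfl
    · have hD : ¬ (ofBlk (M x) = .cp ∨ ofBlk (M x) = .cm) := fun h => hctr ((ctr_iff _ ht).2 h)
      rw [if_neg hctr, if_neg hD]
  rw [Finset.sum_congr rfl step]
  refine (sum_coords_ctr hco (fun (_ : DCell) a c =>
    (mcQ (fun r : Fin 3 => As (r : ℕ)) F c - (dia As Cs).Qd F .cp a c) ^ 2)).trans ?_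
  unfold BadQ
  rw [← Finset.sum_add_distrib]
  refine Finset.sum_congr rfl fun a _ => ?_
  rw [← Finset.sum_add_distrib]
  refine Finset.sum_congr rfl fun c _ => ?_
  ring

/-- The Bad term of `ℓ'` is the Bad term of `P` on the diamond. -/
theorem badC_P_eq (hco : Coords Φ ℓ ℓ' M A C 2 As Cs) (f : X → ℝ) :
    badC Φ ℓ' (fun x => (M x).ctr) f
      = BadP (fun r : Fin 3 => As (r : ℕ)) (fun k : Fin 3 => Cs (k : ℕ)) (lift Φ M A C f) := by
  set F := lift Φ M A C f with hF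
  unfold badC
  rw [Finset.sum_filter]
  have step : ∀ x ∈ Φ,
      (if (M x).ctr then
          ((∑ y ∈ (cls Φ ℓ' x).filter (fun y => (M y).ctr), f y)
              / (((cls Φ ℓ' x).filter (fun y => (M y).ctr)).card : ℝ) - avg Φ ℓ' f x) ^ 2
        else 0)
        = if ofBlk (M x) = .cp ∨ ofBlk (M x) = .cm then
            (fun (_ : DCell) a c => (mcP (fun k : Fin 3 => Cs (k : ℕ)) F a
                - (dia As Cs).Pd F .cp a c) ^ 2) (ofBlk (M x)) (A x) (C x)
          else 0 := by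
    intro x hx
    have ht := tot_of_mem hco hx
    by_cases hctr : (M x).ctr
    · have hD := (ctr_iff _ ht).1 hctr
      rw [if_pos hctr, if_pos hD]
      rw [sum_cls_ctr_P hco f F (fun y hy => (lift_apply hco f hy).symm) hx hctr]
      have hcard : (((cls Φ ℓ' x).filter (fun y => (M y).ctr)).card : ℝ)
          = ((Cs 1).card : ℝ) + (Cs 1).card := by
        rw [Finset.card_eq_sum_ones, Nat.cast_sum]
        simp only [Nat.cast_one]
        rw [sum_cls_ctr_P hco (fun _ => (1 : ℝ)) (fun _ _ _ => 1) (fun _ _ => rfl) hx hctr]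
        simp
      rw [hcard, avg_P hco f hx]
      have hP : (dia As Cs).Pd F (ofBlk (M x)) (A x) (C x) = (dia As Cs).Pd F .cp (A x) (C x) := by
        rcases hD with h | h
        · rw [h]
        · rw [h]
          rfl
      rw [hP]
      rfl
    · have hD : ¬ (ofBlk (M x) = .cp ∨ ofBlk (M x) = .cm) := fun h => hctr ((ctr_iff _ ht).2 h)
      rw [if_neg hctr, if_neg hD]
  rw [Finset.sum_congr rfl step]
  refine (sum_coords_ctr hco (fun (_ : DCell) a c =>
    (mcP (fun k : Fin 3 => Cs (k : ℕ)) F a - (dia As Cs).Pd F .cp a c) ^ 2)).trans ?_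
  unfold BadP
  rw [← Finset.sum_add_distrib]
  refine Finset.sum_congr rfl fun a _ => ?_
  rw [← Finset.sum_add_distrib]
  refine Finset.sum_congr rfl fun c _ => ?_
  ring

end Transport2

/-- **(E2b) in helper17's transport form.** -/
theorem diaStmt : DiaStmt := by
  intro X L L' 𝒜 𝒞 _ _ _ _ Φ ℓ ℓ' M A C As Cs hco f
  rw [swC_eq hco f, badC_Q_eq hco f, badC_P_eq hco f]
  have hR : ∑ x ∈ Φ, (f x - avg Φ ℓ f x) * (f x - avg Φ ℓ' f x)
      = (dia As Cs).SS (fun D a c =>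
          (lift Φ M A C f D a c - (dia As Cs).Qd (lift Φ M A C f) D a c)
            * (lift Φ M A C f D a c - (dia As Cs).Pd (lift Φ M A C f) D a c)) := by
    rw [← sum_coords hco]
    refine Finset.sum_congr rfl fun x hx => ?_
    rw [avg_Q hco f hx, avg_P hco f hx, lift_apply hco f hx]
  rw [hR]
  exact diamond_core (fun r : Fin 3 => As (r : ℕ)) (fun k : Fin 3 => Cs (k : ℕ)) (lift Φ M A C f)

end

end Crest.Agent.Helper85.S0453
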