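import Crest.Agent.Helper85.S0453.Cells

/-!
# The diamond fibre of the two-pair lemma (helper85, S0453 WP-E2, second track)

Six cells `up, dn, lf, rt, cp, cm` with `(ρ, κ) = (2,1), (0,1), (1,2), (1,0), (1,1), (1,1)`;
`Acal, Ccal : Fin 3 → Finset _` arbitrary (possibly empty: truncated diamonds).

`diamond_core`:  `Ecal f - BadQ f - BadP f ≤ 2 ⟨f - Q f, f - P f⟩`.
-/

set_option autoImplicit false
set_option linter.unusedSectionVars false

namespace Crest.Agent.Helper85.S0453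

open Finset

noncomputable section

/-- The six cells of the diamond. -/
inductive DCell | up | dn | lf | rt | cp | cm
  deriving DecidableEq

instance : Fintype DCell :=
  ⟨{.up, .dn, .lf, .rt, .cp, .cm}, by intro x; cases x <;> decide⟩

namespace DCell

/-- `ρ` of a cell. -/
def ρ : DCell → Fin 3
  | up => 2 | dn => 0 | lf => 1 | rt => 1 | cp => 1 | cm => 1

/-- `κ` of a cell. -/
def κ : DCell → Fin 3
  | up => 1 | dn => 1 | lf => 2 | rt => 0 | cp => 1 | cm => 1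

theorem univ_eq : (univ : Finset DCell) = {.up, .dn, .lf, .rt, .cp, .cm} := rfl

theorem sum_univ (F : DCell → ℝ) :
    ∑ M, F M = F .up + F .dn + F .lf + F .rt + F .cp + F .cm := by
  rw [univ_eq]
  simp [Finset.sum_insert]
  ring

theorem sum_κ1 (F : DCell → ℝ) :
    ∑ M ∈ univ.filter (fun M => κ M = 1), F M = F .up + F .dn + F .cp + F .cm := by
  rw [Finset.sum_filter, sum_univ]
  simp [κ]

theorem sum_κ2 (F : DCell → ℝ) : ∑ M ∈ univ.filter (fun M => κ M = 2), F M = F .lf := by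
  rw [Finset.sum_filter, sum_univ]
  simp [κ]

theorem sum_κ0 (F : DCell → ℝ) : ∑ M ∈ univ.filter (fun M => κ M = 0), F M = F .rt := by
  rw [Finset.sum_filter, sum_univ]
  simp [κ]

theorem sum_ρ1 (F : DCell → ℝ) :
    ∑ M ∈ univ.filter (fun M => ρ M = 1), F M = F .lf + F .rt + F .cp + F .cm := by
  rw [Finset.sum_filter, sum_univ]
  simp [ρ]

theorem sum_ρ2 (F : DCell → ℝ) : ∑ M ∈ univ.filter (fun M => ρ M = 2), F M = F .up := by
  rw [Finset.sum_filter, sum_univ]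
  simp [ρ]

theorem sum_ρ0 (F : DCell → ℝ) : ∑ M ∈ univ.filter (fun M => ρ M = 0), F M = F .dn := by
  rw [Finset.sum_filter, sum_univ]
  simp [ρ]

end DCell

variable {α γ : Type*} (Acal : Fin 3 → Finset α) (Ccal : Fin 3 → Finset γ)

/-- The diamond cell structure. -/
def diamond : CellData DCell (Fin 3) (Fin 3) α γ := ⟨DCell.ρ, DCell.κ, Acal, Ccal⟩

theorem SS_diamond (F : DCell → α → γ → ℝ) :
    (diamond Acal Ccal).SS F =
      (∑ A ∈ Acal 2, ∑ C ∈ Ccal 1, F .up A C) + (∑ A ∈ Acal 0, ∑ C ∈ Ccal 1, F .dn A C)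
      + (∑ A ∈ Acal 1, ∑ C ∈ Ccal 2, F .lf A C) + (∑ A ∈ Acal 1, ∑ C ∈ Ccal 0, F .rt A C)
      + (∑ A ∈ Acal 1, ∑ C ∈ Ccal 1, F .cp A C) + (∑ A ∈ Acal 1, ∑ C ∈ Ccal 1, F .cm A C) := by
  unfold CellData.SS
  rw [DCell.sum_univ]
  rfl

/-- (i) the norm dominates the antisymmetric part at the centre. -/
theorem ip_self_ge_centre (v : DCell → α → γ → ℝ) :
    (1 / 2) * ∑ A ∈ Acal 1, ∑ C ∈ Ccal 1, (v .cp A C - v .cm A C) ^ 2
      ≤ (diamond Acal Ccal).ip v v := by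
  unfold CellData.ip
  rw [SS_diamond]
  have h1 : 0 ≤ ∑ A ∈ Acal 2, ∑ C ∈ Ccal 1, v .up A C * v .up A C :=
    Finset.sum_nonneg fun _ _ => Finset.sum_nonneg fun _ _ => mul_self_nonneg _
  have h2 : 0 ≤ ∑ A ∈ Acal 0, ∑ C ∈ Ccal 1, v .dn A C * v .dn A C :=
    Finset.sum_nonneg fun _ _ => Finset.sum_nonneg fun _ _ => mul_self_nonneg _
  have h3 : 0 ≤ ∑ A ∈ Acal 1, ∑ C ∈ Ccal 2, v .lf A C * v .lf A C :=
    Finset.sum_nonneg fun _ _ => Finset.sum_nonneg fun _ _ => mul_self_nonneg _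
  have h4 : 0 ≤ ∑ A ∈ Acal 1, ∑ C ∈ Ccal 0, v .rt A C * v .rt A C :=
    Finset.sum_nonneg fun _ _ => Finset.sum_nonneg fun _ _ => mul_self_nonneg _
  have h5 : (1 / 2) * ∑ A ∈ Acal 1, ∑ C ∈ Ccal 1, (v .cp A C - v .cm A C) ^ 2
      ≤ (∑ A ∈ Acal 1, ∑ C ∈ Ccal 1, v .cp A C * v .cp A C)
        + (∑ A ∈ Acal 1, ∑ C ∈ Ccal 1, v .cm A C * v .cm A C) := by
    rw [Finset.mul_sum, ← Finset.sum_add_distrib]
    refine Finset.sum_le_sum fun A _ => ?_
    rw [Finset.mul_sum, ← Finset.sum_add_distrib]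
    refine Finset.sum_le_sum fun C _ => ?_
    nlinarith [sq_nonneg (v .cp A C + v .cm A C)]
  linarith

/-- (ii) splitting the centre energy into the cell-mean part and the fluctuation part. -/
theorem centre_energy_split (f : DCell → α → γ → ℝ) :
    ∑ A ∈ Acal 1, ∑ C ∈ Ccal 1, (f .cp A C - f .cm A C) ^ 2
      = ((Acal 1).card : ℝ) * ((Ccal 1).card : ℝ)
          * ((diamond Acal Ccal).cs f .cp / (diamond Acal Ccal).cn .cp
              - (diamond Acal Ccal).cs f .cm / (diamond Acal Ccal).cn .cm) ^ 2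
        + ∑ A ∈ Acal 1, ∑ C ∈ Ccal 1,
            ((f - (diamond Acal Ccal).Ed f) .cp A C - (f - (diamond Acal Ccal).Ed f) .cm A C) ^ 2 := by
  set S := diamond Acal Ccal with hS
  set h := f - S.Ed f with hh
  set δ := S.cs f .cp / S.cn .cp - S.cs f .cm / S.cn .cm with hδ
  have hp : ∑ A ∈ Acal 1, ∑ C ∈ Ccal 1, h .cp A C = 0 := S.cs_sub_Ed f .cp
  have hm : ∑ A ∈ Acal 1, ∑ C ∈ Ccal 1, h .cm A C = 0 := S.cs_sub_Ed f .cm
  have e : ∀ A C, (f .cp A C - f .cm A C) ^ 2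
      = δ ^ 2 + 2 * δ * (h .cp A C - h .cm A C) + (h .cp A C - h .cm A C) ^ 2 := by
    intro A C
    have e1 : h .cp A C = f .cp A C - S.cs f .cp / S.cn .cp := rfl
    have e2 : h .cm A C = f .cm A C - S.cs f .cm / S.cn .cm := rfl
    rw [e1, e2, hδ]
    ring
  simp only [e, Finset.sum_add_distrib, ← Finset.mul_sum, Finset.sum_sub_distrib, hp, hm,
    Finset.sum_const, nsmul_eq_mul]
  ring

/-! ### Explicit evaluation in the diamond -/

theorem qn_one : (diamond Acal Ccal).qn 1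
    = ((Acal 2).card : ℝ) + (Acal 0).card + (Acal 1).card + (Acal 1).card :=
  DCell.sum_κ1 (fun M => ((Acal (DCell.ρ M)).card : ℝ))

theorem qn_two : (diamond Acal Ccal).qn 2 = ((Acal 1).card : ℝ) :=
  DCell.sum_κ2 (fun M => ((Acal (DCell.ρ M)).card : ℝ))

theorem qn_zero : (diamond Acal Ccal).qn 0 = ((Acal 1).card : ℝ) :=
  DCell.sum_κ0 (fun M => ((Acal (DCell.ρ M)).card : ℝ))

theorem pn_one : (diamond Acal Ccal).pn 1
    = ((Ccal 2).card : ℝ) + (Ccal 0).card + (Ccal 1).card + (Ccal 1).card :=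
  DCell.sum_ρ1 (fun M => ((Ccal (DCell.κ M)).card : ℝ))

theorem pn_two : (diamond Acal Ccal).pn 2 = ((Ccal 1).card : ℝ) :=
  DCell.sum_ρ2 (fun M => ((Ccal (DCell.κ M)).card : ℝ))

theorem pn_zero : (diamond Acal Ccal).pn 0 = ((Ccal 1).card : ℝ) :=
  DCell.sum_ρ0 (fun M => ((Ccal (DCell.κ M)).card : ℝ))

/-- Mean of a cell function over the column `κ = 1`. -/
def vmean (φ : DCell → ℝ) : ℝ :=
  (((Acal 2).card : ℝ) * φ .up + (Acal 0).card * φ .dn + (Acal 1).card * φ .cp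
      + (Acal 1).card * φ .cm)
    / (((Acal 2).card : ℝ) + (Acal 0).card + (Acal 1).card + (Acal 1).card)

/-- Mean of a cell function over the row `ρ = 1`. -/
def hmean (φ : DCell → ℝ) : ℝ :=
  (((Ccal 2).card : ℝ) * φ .lf + (Ccal 0).card * φ .rt + (Ccal 1).card * φ .cp
      + (Ccal 1).card * φ .cm)
    / (((Ccal 2).card : ℝ) + (Ccal 0).card + (Ccal 1).card + (Ccal 1).card)

theorem qc_κ1 (φ : DCell → ℝ) (M : DCell) (hM : DCell.κ M = 1) :
    (diamond Acal Ccal).qc φ M = vmean Acal φ := by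
  have h : (diamond Acal Ccal).qc φ M
      = (∑ M' ∈ univ.filter (fun M' => DCell.κ M' = 1), ((Acal (DCell.ρ M')).card : ℝ) * φ M')
        / (diamond Acal Ccal).qn 1 := by
    unfold CellData.qc
    show (∑ M' ∈ univ.filter (fun M' => DCell.κ M' = DCell.κ M),
        ((Acal (DCell.ρ M')).card : ℝ) * φ M') / (diamond Acal Ccal).qn (DCell.κ M) = _
    rw [hM]
  rw [h, DCell.sum_κ1, qn_one]
  rfl

theorem pc_ρ1 (φ : DCell → ℝ) (M : DCell) (hM : DCell.ρ M = 1) :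
    (diamond Acal Ccal).pc φ M = hmean Ccal φ := by
  have h : (diamond Acal Ccal).pc φ M
      = (∑ M' ∈ univ.filter (fun M' => DCell.ρ M' = 1), ((Ccal (DCell.κ M')).card : ℝ) * φ M')
        / (diamond Acal Ccal).pn 1 := by
    unfold CellData.pc
    show (∑ M' ∈ univ.filter (fun M' => DCell.ρ M' = DCell.ρ M),
        ((Ccal (DCell.κ M')).card : ℝ) * φ M') / (diamond Acal Ccal).pn (DCell.ρ M) = _
    rw [hM]
  rw [h, DCell.sum_ρ1, pn_one]
  rfl

theorem pc_up (φ : DCell → ℝ) :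
    (diamond Acal Ccal).pc φ .up = ((Ccal 1).card : ℝ) * φ .up / (Ccal 1).card := by
  have h : (diamond Acal Ccal).pc φ .up
      = (∑ M' ∈ univ.filter (fun M' => DCell.ρ M' = 2), ((Ccal (DCell.κ M')).card : ℝ) * φ M')
        / (diamond Acal Ccal).pn 2 := rfl
  rw [h, DCell.sum_ρ2, pn_two]
  rfl

theorem pc_dn (φ : DCell → ℝ) :
    (diamond Acal Ccal).pc φ .dn = ((Ccal 1).card : ℝ) * φ .dn / (Ccal 1).card := by
  have h : (diamond Acal Ccal).pc φ .dn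
      = (∑ M' ∈ univ.filter (fun M' => DCell.ρ M' = 0), ((Ccal (DCell.κ M')).card : ℝ) * φ M')
        / (diamond Acal Ccal).pn 0 := rfl
  rw [h, DCell.sum_ρ0, pn_zero]
  rfl

theorem qc_lf (φ : DCell → ℝ) :
    (diamond Acal Ccal).qc φ .lf = ((Acal 1).card : ℝ) * φ .lf / (Acal 1).card := by
  have h : (diamond Acal Ccal).qc φ .lf
      = (∑ M' ∈ univ.filter (fun M' => DCell.κ M' = 2), ((Acal (DCell.ρ M')).card : ℝ) * φ M')
        / (diamond Acal Ccal).qn 2 := rfl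
  rw [h, DCell.sum_κ2, qn_two]
  rfl

theorem qc_rt (φ : DCell → ℝ) :
    (diamond Acal Ccal).qc φ .rt = ((Acal 1).card : ℝ) * φ .rt / (Acal 1).card := by
  have h : (diamond Acal Ccal).qc φ .rt
      = (∑ M' ∈ univ.filter (fun M' => DCell.κ M' = 0), ((Acal (DCell.ρ M')).card : ℝ) * φ M')
        / (diamond Acal Ccal).qn 0 := rfl
  rw [h, DCell.sum_κ0, qn_zero]
  rfl

theorem mul_sub_mul_div_self (c t : ℝ) : c * (t - c * t / c) = 0 := by
  by_cases h : c = 0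
  · rw [h, zero_mul]
  · field_simp
    ring

/-- (iv) the cell-level computation. -/
theorem cell_ip (φ : DCell → ℝ) :
    2 * (diamond Acal Ccal).ip
          ((fun M _ _ => φ M) - (diamond Acal Ccal).Qd (fun M _ _ => φ M))
          ((fun M _ _ => φ M) - (diamond Acal Ccal).Pd (fun M _ _ => φ M))
      = 4 * ((Acal 1).card : ℝ) * (Ccal 1).card
          * ((φ .cp + φ .cm) / 2 - vmean Acal φ) * ((φ .cp + φ .cm) / 2 - hmean Ccal φ)
        + ((Acal 1).card : ℝ) * (Ccal 1).card * (φ .cp - φ .cm) ^ 2 := by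
  rw [CellData.ip_cell_res, DCell.sum_univ]
  rw [qc_κ1 Acal Ccal φ .up rfl, qc_κ1 Acal Ccal φ .dn rfl, qc_κ1 Acal Ccal φ .cp rfl,
    qc_κ1 Acal Ccal φ .cm rfl, pc_ρ1 Acal Ccal φ .lf rfl, pc_ρ1 Acal Ccal φ .rt rfl,
    pc_ρ1 Acal Ccal φ .cp rfl, pc_ρ1 Acal Ccal φ .cm rfl, pc_up, pc_dn, qc_lf, qc_rt]
  have e1 : (diamond Acal Ccal).cn .up = ((Acal 2).card : ℝ) * (Ccal 1).card := rfl
  have e2 : (diamond Acal Ccal).cn .dn = ((Acal 0).card : ℝ) * (Ccal 1).card := rfl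
  have e3 : (diamond Acal Ccal).cn .lf = ((Acal 1).card : ℝ) * (Ccal 2).card := rfl
  have e4 : (diamond Acal Ccal).cn .rt = ((Acal 1).card : ℝ) * (Ccal 0).card := rfl
  have e5 : (diamond Acal Ccal).cn .cp = ((Acal 1).card : ℝ) * (Ccal 1).card := rfl
  have e6 : (diamond Acal Ccal).cn .cm = ((Acal 1).card : ℝ) * (Ccal 1).card := rfl
  rw [e1, e2, e3, e4, e5, e6]
  have z1 := mul_sub_mul_div_self ((Ccal 1).card : ℝ) (φ .up)
  have z2 := mul_sub_mul_div_self ((Ccal 1).card : ℝ) (φ .dn)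
  have z3 := mul_sub_mul_div_self ((Acal 1).card : ℝ) (φ .lf)
  have z4 := mul_sub_mul_div_self ((Acal 1).card : ℝ) (φ .rt)
  linear_combination (2 * ((Acal 2).card : ℝ) * (φ .up - vmean Acal φ)) * z1
    + (2 * ((Acal 0).card : ℝ) * (φ .dn - vmean Acal φ)) * z2
    + (2 * ((Ccal 2).card : ℝ) * (φ .lf - hmean Ccal φ)) * z3
    + (2 * ((Ccal 0).card : ℝ) * (φ .rt - hmean Ccal φ)) * z4

/-! ### The Bad terms -/

/-- Mean of `f` over the centre states with third coordinate `C`. -/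
def mcQ (f : DCell → α → γ → ℝ) (C : γ) : ℝ :=
  ((∑ A ∈ Acal 1, f .cp A C) + ∑ A ∈ Acal 1, f .cm A C)
    / (((Acal 1).card : ℝ) + (Acal 1).card)

/-- Mean of `f` over the centre states with second coordinate `A`. -/
def mcP (f : DCell → α → γ → ℝ) (A : α) : ℝ :=
  ((∑ C ∈ Ccal 1, f .cp A C) + ∑ C ∈ Ccal 1, f .cm A C)
    / (((Ccal 1).card : ℝ) + (Ccal 1).card)

/-- The Bad term of `Q` (sum over the centre states of `(E[f | centre, C] - Q f)²`). -/
def BadQ (f : DCell → α → γ → ℝ) : ℝ :=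
  ∑ A ∈ Acal 1, ∑ C ∈ Ccal 1, 2 * (mcQ Acal f C - (diamond Acal Ccal).Qd f .cp A C) ^ 2

/-- The Bad term of `P`. -/
def BadP (f : DCell → α → γ → ℝ) : ℝ :=
  ∑ A ∈ Acal 1, ∑ C ∈ Ccal 1, 2 * (mcP Ccal f A - (diamond Acal Ccal).Pd f .cp A C) ^ 2

theorem BadQ_nonneg (f : DCell → α → γ → ℝ) : 0 ≤ BadQ Acal Ccal f :=
  Finset.sum_nonneg fun _ _ => Finset.sum_nonneg fun _ _ =>
    mul_nonneg (by norm_num) (sq_nonneg _)

theorem BadP_nonneg (f : DCell → α → γ → ℝ) : 0 ≤ BadP Acal Ccal f :=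
  Finset.sum_nonneg fun _ _ => Finset.sum_nonneg fun _ _ =>
    mul_nonneg (by norm_num) (sq_nonneg _)

/-- (iii) for `Q`. -/
theorem BadQ_ge (f : DCell → α → γ → ℝ) :
    2 * ((Acal 1).card : ℝ) * (Ccal 1).card
        * (((diamond Acal Ccal).cs f .cp / (diamond Acal Ccal).cn .cp
              + (diamond Acal Ccal).cs f .cm / (diamond Acal Ccal).cn .cm) / 2
            - vmean Acal (fun M => (diamond Acal Ccal).cs f M / (diamond Acal Ccal).cn M)) ^ 2
      ≤ BadQ Acal Ccal f := by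
  set S := diamond Acal Ccal with hS
  by_cases ha : ((Acal 1).card : ℝ) = 0
  · rw [ha]; simp only [mul_zero, zero_mul]; exact BadQ_nonneg Acal Ccal f
  by_cases hc : ((Ccal 1).card : ℝ) = 0
  · rw [hc]; simp only [mul_zero, zero_mul]; exact BadQ_nonneg Acal Ccal f
  have ha0 : (0 : ℝ) < (Acal 1).card := lt_of_le_of_ne (Nat.cast_nonneg _) (Ne.symm ha)
  have hc0 : (0 : ℝ) < (Ccal 1).card := lt_of_le_of_ne (Nat.cast_nonneg _) (Ne.symm hc)
  set φ : DCell → ℝ := fun M => S.cs f M / S.cn M with hφ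
  set z : γ → ℝ := fun C => mcQ Acal f C - S.qs f 1 C / S.qn 1 with hz
  have hB : BadQ Acal Ccal f = ((Acal 1).card : ℝ) * ∑ C ∈ Ccal 1, 2 * z C ^ 2 := by
    have : BadQ Acal Ccal f = ∑ _A ∈ Acal 1, ∑ C ∈ Ccal 1, 2 * z C ^ 2 := rfl
    rw [this, Finset.sum_const, nsmul_eq_mul]
  have h1 : ∑ C ∈ Ccal 1, mcQ Acal f C
      = (S.cs f .cp + S.cs f .cm) / (((Acal 1).card : ℝ) + (Acal 1).card) := by
    unfold mcQ
    rw [← Finset.sum_div, Finset.sum_add_distrib]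
    have e1 : ∑ C ∈ Ccal 1, ∑ A ∈ Acal 1, f .cp A C = S.cs f .cp := Finset.sum_comm
    have e2 : ∑ C ∈ Ccal 1, ∑ A ∈ Acal 1, f .cm A C = S.cs f .cm := Finset.sum_comm
    rw [e1, e2]
  have h2 : ∑ C ∈ Ccal 1, S.qs f 1 C / S.qn 1
      = (S.cs f .up + S.cs f .dn + S.cs f .cp + S.cs f .cm)
        / (((Acal 2).card : ℝ) + (Acal 0).card + (Acal 1).card + (Acal 1).card) := by
    rw [← Finset.sum_div, ← qn_one Acal Ccal]
    have e : ∑ C ∈ Ccal 1, S.qs f 1 C = ∑ M ∈ univ.filter (fun M => DCell.κ M = 1), S.cs f M :=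
      S.sum_qs f 1
    rw [e, DCell.sum_κ1]
  have k1 : ((Acal 2).card : ℝ) * (Ccal 1).card * φ .up = S.cs f .up := S.cn_mul_div f .up
  have k2 : ((Acal 0).card : ℝ) * (Ccal 1).card * φ .dn = S.cs f .dn := S.cn_mul_div f .dn
  have k3 : ((Acal 1).card : ℝ) * (Ccal 1).card * φ .cp = S.cs f .cp := S.cn_mul_div f .cp
  have k4 : ((Acal 1).card : ℝ) * (Ccal 1).card * φ .cm = S.cs f .cm := S.cn_mul_div f .cm
  have hsum : ∑ C ∈ Ccal 1, z C
      = ((Ccal 1).card : ℝ) * ((φ .cp + φ .cm) / 2 - vmean Acal φ) := by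
    rw [hz, Finset.sum_sub_distrib, h1, h2, ← k1, ← k2, ← k3, ← k4]
    unfold vmean
    have hN : ((Acal 2).card : ℝ) + (Acal 0).card + (Acal 1).card + (Acal 1).card ≠ 0 := by
      have h2' : (0 : ℝ) ≤ (Acal 2).card := Nat.cast_nonneg _
      have h0' : (0 : ℝ) ≤ (Acal 0).card := Nat.cast_nonneg _
      linarith
    field_simp
    ring
  have hcs := sq_sum_le_card_mul_sum_sq (s := Ccal 1) (f := z)
  rw [hsum] at hcs
  have hx : ((Ccal 1).card : ℝ) * ((φ .cp + φ .cm) / 2 - vmean Acal φ) ^ 2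
      ≤ ∑ C ∈ Ccal 1, z C ^ 2 := by
    refine le_of_mul_le_mul_left ?_ hc0
    calc ((Ccal 1).card : ℝ) * (((Ccal 1).card : ℝ) * ((φ .cp + φ .cm) / 2 - vmean Acal φ) ^ 2)
        = (((Ccal 1).card : ℝ) * ((φ .cp + φ .cm) / 2 - vmean Acal φ)) ^ 2 := by ring
      _ ≤ _ := hcs
  rw [hB]
  have e3 : ∑ C ∈ Ccal 1, 2 * z C ^ 2 = 2 * ∑ C ∈ Ccal 1, z C ^ 2 := by rw [Finset.mul_sum]
  rw [e3]
  have : (φ .cp + φ .cm) / 2 = (S.cs f .cp / S.cn .cp + S.cs f .cm / S.cn .cm) / 2 := rfl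
  rw [← this]
  nlinarith [mul_le_mul_of_nonneg_left hx ha0.le]

/-- (iii) for `P`. -/
theorem BadP_ge (f : DCell → α → γ → ℝ) :
    2 * ((Acal 1).card : ℝ) * (Ccal 1).card
        * (((diamond Acal Ccal).cs f .cp / (diamond Acal Ccal).cn .cp
              + (diamond Acal Ccal).cs f .cm / (diamond Acal Ccal).cn .cm) / 2
            - hmean Ccal (fun M => (diamond Acal Ccal).cs f M / (diamond Acal Ccal).cn M)) ^ 2
      ≤ BadP Acal Ccal f := by
  set S := diamond Acal Ccal with hS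
  by_cases ha : ((Acal 1).card : ℝ) = 0
  · rw [ha]; simp only [mul_zero, zero_mul]; exact BadP_nonneg Acal Ccal f
  by_cases hc : ((Ccal 1).card : ℝ) = 0
  · rw [hc]; simp only [mul_zero, zero_mul]; exact BadP_nonneg Acal Ccal f
  have ha0 : (0 : ℝ) < (Acal 1).card := lt_of_le_of_ne (Nat.cast_nonneg _) (Ne.symm ha)
  have hc0 : (0 : ℝ) < (Ccal 1).card := lt_of_le_of_ne (Nat.cast_nonneg _) (Ne.symm hc)
  set φ : DCell → ℝ := fun M => S.cs f M / S.cn M with hφ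
  set z : α → ℝ := fun A => mcP Ccal f A - S.ps f 1 A / S.pn 1 with hz
  have hB : BadP Acal Ccal f = ((Ccal 1).card : ℝ) * ∑ A ∈ Acal 1, 2 * z A ^ 2 := by
    have : BadP Acal Ccal f = ∑ A ∈ Acal 1, ∑ _C ∈ Ccal 1, 2 * z A ^ 2 := rfl
    rw [this, Finset.mul_sum]
    refine Finset.sum_congr rfl fun A _ => ?_
    rw [Finset.sum_const, nsmul_eq_mul]
  have h1 : ∑ A ∈ Acal 1, mcP Ccal f A
      = (S.cs f .cp + S.cs f .cm) / (((Ccal 1).card : ℝ) + (Ccal 1).card) := by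
    unfold mcP
    rw [← Finset.sum_div, Finset.sum_add_distrib]
    rfl
  have h2 : ∑ A ∈ Acal 1, S.ps f 1 A / S.pn 1
      = (S.cs f .lf + S.cs f .rt + S.cs f .cp + S.cs f .cm)
        / (((Ccal 2).card : ℝ) + (Ccal 0).card + (Ccal 1).card + (Ccal 1).card) := by
    rw [← Finset.sum_div, ← pn_one Acal Ccal]
    have e : ∑ A ∈ Acal 1, S.ps f 1 A = ∑ M ∈ univ.filter (fun M => DCell.ρ M = 1), S.cs f M :=
      S.sum_ps f 1
    rw [e, DCell.sum_ρ1]
  have k1 : ((Acal 1).card : ℝ) * (Ccal 2).card * φ .lf = S.cs f .lf := S.cn_mul_div f .lf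
  have k2 : ((Acal 1).card : ℝ) * (Ccal 0).card * φ .rt = S.cs f .rt := S.cn_mul_div f .rt
  have k3 : ((Acal 1).card : ℝ) * (Ccal 1).card * φ .cp = S.cs f .cp := S.cn_mul_div f .cp
  have k4 : ((Acal 1).card : ℝ) * (Ccal 1).card * φ .cm = S.cs f .cm := S.cn_mul_div f .cm
  have hsum : ∑ A ∈ Acal 1, z A
      = ((Acal 1).card : ℝ) * ((φ .cp + φ .cm) / 2 - hmean Ccal φ) := by
    rw [hz, Finset.sum_sub_distrib, h1, h2, ← k1, ← k2, ← k3, ← k4]
    unfold hmean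
    have hN : ((Ccal 2).card : ℝ) + (Ccal 0).card + (Ccal 1).card + (Ccal 1).card ≠ 0 := by
      have h2' : (0 : ℝ) ≤ (Ccal 2).card := Nat.cast_nonneg _
      have h0' : (0 : ℝ) ≤ (Ccal 0).card := Nat.cast_nonneg _
      linarith
    field_simp
    ring
  have hcs := sq_sum_le_card_mul_sum_sq (s := Acal 1) (f := z)
  rw [hsum] at hcs
  have hx : ((Acal 1).card : ℝ) * ((φ .cp + φ .cm) / 2 - hmean Ccal φ) ^ 2
      ≤ ∑ A ∈ Acal 1, z A ^ 2 := by
    refine le_of_mul_le_mul_left ?_ ha0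
    calc ((Acal 1).card : ℝ) * (((Acal 1).card : ℝ) * ((φ .cp + φ .cm) / 2 - hmean Ccal φ) ^ 2)
        = (((Acal 1).card : ℝ) * ((φ .cp + φ .cm) / 2 - hmean Ccal φ)) ^ 2 := by ring
      _ ≤ _ := hcs
  rw [hB]
  have e3 : ∑ A ∈ Acal 1, 2 * z A ^ 2 = 2 * ∑ A ∈ Acal 1, z A ^ 2 := by rw [Finset.mul_sum]
  rw [e3]
  have : (φ .cp + φ .cm) / 2 = (S.cs f .cp / S.cn .cp + S.cs f .cm / S.cn .cm) / 2 := rfl
  rw [← this]
  nlinarith [mul_le_mul_of_nonneg_left hx hc0.le]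

/-- **The two-pair lemma on the diamond** (concrete model). -/
theorem diamond_core (f : DCell → α → γ → ℝ) :
    (∑ A ∈ Acal 1, ∑ C ∈ Ccal 1, (f .cp A C - f .cm A C) ^ 2)
        - BadQ Acal Ccal f - BadP Acal Ccal f
      ≤ 2 * (diamond Acal Ccal).SS (fun M A C =>
          (f M A C - (diamond Acal Ccal).Qd f M A C) * (f M A C - (diamond Acal Ccal).Pd f M A C)) := by
  set S := diamond Acal Ccal with hS
  have hSS : S.SS (fun M A C => (f M A C - S.Qd f M A C) * (f M A C - S.Pd f M A C))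
      = S.ip (f - S.Qd f) (f - S.Pd f) := rfl
  rw [hSS, S.ip_res_decomp f]
  set φ : DCell → ℝ := fun M => S.cs f M / S.cn M with hφ
  have hg : S.Ed f = fun M _ _ => φ M := rfl
  set h := f - S.Ed f with hh
  set v := h - S.Qd h - S.Pd h with hv
  have hcell := cell_ip Acal Ccal (α := α) (γ := γ) φ
  rw [← hg] at hcell
  have hi := ip_self_ge_centre Acal Ccal v
  have hvd : ∀ A C, v .cp A C - v .cm A C = h .cp A C - h .cm A C := by
    intro A C
    have q : S.Qd h .cp A C = S.Qd h .cm A C := rfl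
    have p : S.Pd h .cp A C = S.Pd h .cm A C := rfl
    simp only [hv, Pi.sub_apply]
    rw [q, p]
    ring
  simp only [hvd] at hi
  have hsplit := centre_energy_split Acal Ccal f
  have hQ := BadQ_ge Acal Ccal f
  have hP := BadP_ge Acal Ccal f
  have e1 : S.cs f .cp / S.cn .cp = φ .cp := rfl
  have e2 : S.cs f .cm / S.cn .cm = φ .cm := rfl
  have e3 : (fun M => S.cs f M / S.cn M) = φ := rfl
  rw [e1, e2] at hsplit
  rw [e1, e2, e3] at hQ hP
  set x := (φ .cp + φ .cm) / 2 - vmean Acal φ with hx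
  set y := (φ .cp + φ .cm) / 2 - hmean Ccal φ with hy
  have hac : (0 : ℝ) ≤ ((Acal 1).card : ℝ) * (Ccal 1).card :=
    mul_nonneg (Nat.cast_nonneg _) (Nat.cast_nonneg _)
  nlinarith [mul_nonneg hac (sq_nonneg (x + y))]

/-! ### State sums of functions supported at the centre (used for transport) -/

theorem SS_diamond_cp (G : DCell → α → γ → ℝ) :
    (diamond Acal Ccal).SS (fun D a c => if D = .cp then G D a c else 0)
      = ∑ a ∈ Acal 1, ∑ c ∈ Ccal 1, G .cp a c := by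
  rw [SS_diamond]
  simp

theorem SS_diamond_cm (G : DCell → α → γ → ℝ) :
    (diamond Acal Ccal).SS (fun D a c => if D = .cm then G D a c else 0)
      = ∑ a ∈ Acal 1, ∑ c ∈ Ccal 1, G .cm a c := by
  rw [SS_diamond]
  simp

theorem SS_diamond_ctr (G : DCell → α → γ → ℝ) :
    (diamond Acal Ccal).SS (fun D a c => if D = .cp ∨ D = .cm then G D a c else 0)
      = (∑ a ∈ Acal 1, ∑ c ∈ Ccal 1, G .cp a c) + ∑ a ∈ Acal 1, ∑ c ∈ Ccal 1, G .cm a c := by
  rw [SS_diamond]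
  simp

theorem sum_sum_ite_eq [DecidableEq α] [DecidableEq γ] (s : Finset α) (t : Finset γ) (a0 : α)
    (c0 : γ) (ha : a0 ∈ s) (hc : c0 ∈ t) (g : α → γ → ℝ) :
    ∑ a ∈ s, ∑ c ∈ t, (if a = a0 ∧ c = c0 then g a c else 0) = g a0 c0 := by
  have h1 : ∀ a ∈ s, (∑ c ∈ t, if a = a0 ∧ c = c0 then g a c else 0)
      = if a = a0 then g a c0 else 0 := by
    intro a _
    by_cases h : a = a0
    · simp only [h, true_and, if_true]
      rw [Finset.sum_ite_eq', if_pos hc]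
    · simp [h]
  rw [Finset.sum_congr rfl h1, Finset.sum_ite_eq', if_pos ha]

end

end Crest.Agent.Helper85.S0453
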